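import Vale.Agent.P345.Prim

namespace Vale.Agent.Results.P345.SingleFold

/-- Every recursively enumerable subset of `ℕ^n` has a single-fold Diophantine representation. -/
theorem result (n : ℕ) (S : Set (Fin n → ℕ)) (hS : REPred (fun a => a ∈ S)) :
    ∃ (m : ℕ) (P : MvPolynomial (Fin n ⊕ Fin m) ℤ), ∀ a : Fin n → ℕ,
      (a ∈ S ↔ ∃ w : Fin m → ℕ,
        MvPolynomial.eval (fun i => ((Sum.elim a w i : ℕ) : ℤ)) P = 0) ∧
      ∀ w w' : Fin m → ℕ,
        MvPolynomial.eval (fun i => ((Sum.elim a w i : ℕ) : ℤ)) P = 0 →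
        MvPolynomial.eval (fun i => ((Sum.elim a w' i : ℕ) : ℤ)) P = 0 → w = w' :=
  (Vale.Agent.P345.SF.re hS).mv

end Vale.Agent.Results.P345.SingleFold
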